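import Crest.Agent.R166.LR.Avg

/-!
# Row 166, block LR: deterministic comparisons along a gluing
-/

set_option autoImplicit false
set_option linter.unusedSectionVars false

open MeasureTheory ProbabilityTheory Filter Topology Complex
open scoped ENNReal BigOperators

noncomputable section

namespace Crest.Agent.R166

variable {V : Type} [Fintype V] [DecidableEq V] {q R : ℕ} {s : ℝ} {z : ℂ} {Λ ε ε₂ : ℝ}
  {F : ℂ × Env q → ℝ}

theorem lr_abs_integral_le {Y : Type} [MeasurableSpace Y] {μ : Measure Y} [IsProbabilityMeasure μ]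
    {f : Y → ℝ} {C : ℝ} (h : ∀ y, |f y| ≤ C) : |∫ y, f y ∂μ| ≤ C := by
  simpa using norm_integral_le_of_norm_le_const (μ := μ) (C := C) (f := f) (Eventually.of_forall h)

theorem lr_inlH_inj : Function.Injective (inlH : HE V q → HE (V ⊕ Fin 2) q) := by
  rintro ⟨a, b⟩ ⟨a', b'⟩ h
  simpa [inlH] using h

theorem lr_ratio [Nonempty V] : (Fintype.card (HE V q) : ℝ) / Fintype.card (HE (V ⊕ Fin 2) q) =
    1 + -(2 / ((Fintype.card V : ℝ) + 2)) := by
  rw [p_card_HE, p_card_HE, Fintype.card_sum, Fintype.card_fin]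
  push_cast
  field_simp
  ring

/-- the half-edges whose cavity value or view is changed by the gluing -/
def lr_chg (s : ℝ) (z : ℂ) (ε : ℝ) (R : ℕ) (c : Cfg V q) (α : Fin (q + 1) → HE V q)
    (w : Fin 2 → II) (h : HE V q) : Prop :=
  ¬ (gam (Yc s z (glueC c α w) (inlH h)) (Yc s z c h) ≤ ε ^ 2 ∧
    Agree R (view (glueC c α w) (inlH h)) (view c h))

theorem lr_RA [Nonempty V] (hZ : StZC) (hz : 0 < z.im) (hΛ : 0 ≤ Λ) (hε : 0 ≤ ε) (hε₂ : 0 ≤ ε₂)
    (hF : TestF Λ ε₂ R F) (c : Cfg V q) (α : Fin (q + 1) → HE V q) (w : Fin 2 → II) :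
    |RA s z F (glueC c α w) - RA s z F c| ≤
      Λ * ε + ε₂ + 2 * frac (lr_chg s z ε R c α w) + 4 / Fintype.card V := by
  have h1 := lr_avg_inj (lr_inlH_inj (V := V) (q := q))
    (f := fun h => F (Yc s z (glueC c α w) h, view (glueC c α w) h)) fun h => hF.2.1 _
  have h2 := lr_avg_close (a := Λ * ε + ε₂) (p := lr_chg s z ε R c α w)
    (f := fun h => F (Yc s z (glueC c α w) (inlH h), view (glueC c α w) (inlH h)))
    (g := fun h => F (Yc s z c h, view c h)) (by positivity) (fun h => hF.2.1 _)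
    (fun h => hF.2.1 _) fun h hh => by
      obtain ⟨e1, e2⟩ := not_not.1 hh
      refine (hF.2.2 _ _ (hZ.pos _ _ _ _ _ _ hz).1 (hZ.pos _ _ _ _ _ _ hz).1 e2).trans ?_
      gcongr
      exact Real.sqrt_le_iff.2 ⟨hε, e1⟩
  rw [lr_ratio] at h1
  have hn : (0 : ℝ) < Fintype.card V := by exact_mod_cast Fintype.card_pos
  have h3 : 2 / ((Fintype.card V : ℝ) + 2) ≤ 2 / Fintype.card V := by gcongr; linarith
  have h4 : 4 / (Fintype.card V : ℝ) = 2 * (2 / Fintype.card V) := by ring
  have := abs_le.1 h1; have := abs_le.1 h2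
  unfold RA
  rw [abs_le]
  constructor <;> linarith

theorem lr_RB_integrable (π : Measure II) [IsProbabilityMeasure π] (hF : TestF Λ ε₂ R F)
    (c : Cfg V q) : Integrable (fun a => avg fun h : Fin q → HE V q =>
      F (Psi s z a (fun j => Yc s z c (h j)), cons a fun j => view c (h j))) π :=
  lr_integrable (lr_meas_avg fun _ => hF.1.comp (lr_meas_psi _ _ _ _))
    fun _ => lr_abs_avg_le zero_le_one fun _ => hF.2.1 _

theorem lr_RA_abs (hF : TestF Λ ε₂ R F) (c : Cfg V q) : |RA s z F c| ≤ 1 :=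
  lr_abs_avg_le zero_le_one fun _ => hF.2.1 _

theorem lr_RB_abs (π : Measure II) [IsProbabilityMeasure π] (hF : TestF Λ ε₂ R F) (c : Cfg V q) :
    |RB π s z F c| ≤ 1 := by
  unfold RB
  exact lr_abs_integral_le fun _ => lr_abs_avg_le zero_le_one fun _ => hF.2.1 _

theorem lr_RB [Nonempty V] (π : Measure II) [IsProbabilityMeasure π] (hZ : StZC) (hz : 0 < z.im)
    (hΛ : 0 ≤ Λ) (hε : 0 ≤ ε) (hε₂ : 0 ≤ ε₂) (hF : TestF Λ ε₂ R F) (c : Cfg V q)
    (α : Fin (q + 1) → HE V q) (w : Fin 2 → II) :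
    |RB π s z F (glueC c α w) - RB π s z F c| ≤
      Λ * ε + ε₂ + 2 * (q * frac (lr_chg s z ε R c α w)) + 4 * q / Fintype.card V := by
  unfold RB
  rw [← integral_sub (lr_RB_integrable π hF _) (lr_RB_integrable π hF _)]
  refine lr_abs_integral_le fun a => ?_
  have hinj : Function.Injective fun (h : Fin q → HE V q) j => (inlH (h j) : HE (V ⊕ Fin 2) q) :=
    fun h h' e => funext fun j => lr_inlH_inj (congrFun e j)
  have h1 := lr_avg_inj hinj (f := fun h => F (Psi s z a (fun j => Yc s z (glueC c α w) (h j)),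
    cons a fun j => view (glueC c α w) (h j))) fun h => hF.2.1 _
  have h2 := lr_avg_close (a := Λ * ε + ε₂)
    (p := fun h : Fin q → HE V q => ∃ j, lr_chg s z ε R c α w (h j))
    (f := fun h => F (Psi s z a (fun j => Yc s z (glueC c α w) (inlH (h j))),
      cons a fun j => view (glueC c α w) (inlH (h j))))
    (g := fun h => F (Psi s z a (fun j => Yc s z c (h j)), cons a fun j => view c (h j)))
    (by positivity) (fun h => hF.2.1 _) (fun h => hF.2.1 _) fun h hh => by
      have e := fun j => not_not.1 (not_exists.1 hh j)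
      refine (hF.2.2 _ _ (t0_psi_pos s hz a fun j => (hZ.pos _ _ _ _ _ _ hz).1.le).1
        (t0_psi_pos s hz a fun j => (hZ.pos _ _ _ _ _ _ hz).1.le).1
        (lr_agree_cons a fun j => (e j).2)).trans ?_
      gcongr
      exact lr_gam_psi s hz a hε (fun j => hZ.pos _ _ _ _ _ _ hz) (fun j => hZ.pos _ _ _ _ _ _ hz)
        fun j => (e j).1
  have h5 := lr_frac_exists_le (fun j (h : Fin q → HE V q) => lr_chg s z ε R c α w (h j))
    fun j => lr_frac_eval (lr_chg s z ε R c α w) j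
  rw [Fintype.card_fin] at h5
  rw [Fintype.card_fun, Fintype.card_fun, Fintype.card_fin, Nat.cast_pow, Nat.cast_pow, ← div_pow,
    lr_ratio] at h1
  have hn : (0 : ℝ) < Fintype.card V := by exact_mod_cast Fintype.card_pos
  have h3 : 2 / ((Fintype.card V : ℝ) + 2) ≤ 2 / Fintype.card V := by gcongr; linarith
  have h6 := one_add_mul_le_pow (a := -(2 / ((Fintype.card V : ℝ) + 2))) (by
    have : 2 / ((Fintype.card V : ℝ) + 2) ≤ 1 := by rw [div_le_one (by linarith)]; linarith
    linarith) q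
  have h7 := mul_le_mul_of_nonneg_left h3 (Nat.cast_nonneg q)
  have h4 : 4 * q / (Fintype.card V : ℝ) = 2 * (q * (2 / Fintype.card V)) := by ring
  have := abs_le.1 h1; have := abs_le.1 h2
  rw [abs_le]
  constructor <;> linarith

/-- the value predicted by the recursion at the glued vertex -/
def lr_Ft (s : ℝ) (z : ℂ) (F : ℂ × Env q → ℝ) (c : Cfg V q) (i : Fin (q + 1))
    (α : Fin (q + 1) → HE V q) (a : II) : ℝ :=
  F (Psi s z a (fun j => Yc s z c (c.1 (α (i + j.succ)))),
    cons a fun j => view c (c.1 (α (i + j.succ))))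

theorem lr_Ft_int [Nonempty V] (π : Measure II) [IsProbabilityMeasure π] (hF : TestF Λ ε₂ R F)
    (c : Cfg V q) (i : Fin (q + 1)) :
    Integrable (fun w : Fin 2 → II => avg fun α => lr_Ft s z F c i α (w 0))
      (Measure.pi fun _ => π) ∧
    ∫ w : Fin 2 → II, (avg fun α => lr_Ft s z F c i α (w 0)) ∂(Measure.pi fun _ => π) =
      RB π s z F c := by
  have e : ∀ a, (avg fun α => lr_Ft s z F c i α a) = avg fun h : Fin q → HE V q =>
      F (Psi s z a (fun j => Yc s z c (h j)), cons a fun j => view c (h j)) := fun a =>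
    lr_avg_shift i c.1.1 fun h =>
      F (Psi s z a (fun j => Yc s z c (h j)), cons a fun j => view c (h j))
  simp only [e]
  have hm := measurePreserving_eval (fun _ : Fin 2 => π) 0
  have hi := lr_RB_integrable (s := s) (z := z) π hF c
  refine ⟨hm.integrable_comp_of_integrable hi, ?_⟩
  unfold RB
  rw [← hm.map_eq] at hi
  conv_rhs => rw [← hm.map_eq]
  rw [integral_map hm.measurable.aemeasurable hi.aestronglyMeasurable]

theorem lr_sum_erase {M : Type} [AddCommMonoid M] (i : Fin (q + 1)) (f : Fin (q + 1) → M) :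
    ∑ j ∈ (Finset.univ.erase i).erase i, f j = ∑ j : Fin q, f (i + j.succ) := by
  rw [Finset.erase_idem]
  symm
  refine Finset.sum_bij (fun j _ => i + j.succ) (fun j _ => ?_) (fun j _ j' _ h => ?_)
    (fun k hk => ?_) fun _ _ => rfl
  · simp [Fin.succ_ne_zero]
  · exact Fin.succ_injective _ (add_left_cancel h)
  · have h1 : k - i ≠ 0 := sub_ne_zero.2 (Finset.ne_of_mem_erase hk)
    obtain ⟨j, hj⟩ := Fin.exists_succ_eq.2 h1
    exact ⟨j, Finset.mem_univ _, by rw [hj]; simp⟩

theorem lr_FO (hK : StKit) (hZ : StZC) (hz : 0 < z.im) (hΛ : 0 ≤ Λ) (hF : TestF Λ ε₂ R F)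
    {c : Cfg V q} {α : Fin (q + 1) → HE V q} (w : Fin 2 → II) (hD : Disj c.1 α) (i : Fin (q + 1))
    {γ : ℝ} (hγ : gam (Yc s z (glueC c α w) (oH V i)) (-(z - s * (w 0 : ℝ) + 0 +
      ∑ j ∈ (Finset.univ.erase i).erase i, Yc s z c (c.1 (α j)))⁻¹) ≤ γ ^ 2)
    (hv : ∀ j, Agree R (view (glueC c α w) (inlH (c.1 (α j)))) (view c (c.1 (α j)))) :
    |F (Yc s z (glueC c α w) (oH V i), view (glueC c α w) (oH V i)) - lr_Ft s z F c i α (w 0)| ≤
      Λ * |γ| + ε₂ := by
  rw [add_zero, lr_sum_erase] at hγ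
  have e : view (glueC c α w) (oH V i) =
      cons (w 0) fun j => view (glueC c α w) (inlH (c.1 (α (i + j.succ)))) := by
    ext1 l
    cases l with
    | nil => rfl
    | cons j l =>
      have := (hK.glue_spec q V c.1 α hD).1 (i + j.succ)
      simp only [view, cons, walk]
      exact congrArg (fun h => (glueC c α w).2 (walk (glueC c α w).1 h l).1) this
  refine (hF.2.2 _ _ (hZ.pos _ _ _ _ _ _ hz).1
    (t0_psi_pos s hz _ fun j => (hZ.pos _ _ _ _ _ _ hz).1.le).1 ?_).trans ?_
  · rw [e]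
    exact lr_agree_cons _ fun j => hv _
  · gcongr
    exact Real.sqrt_le_iff.2 ⟨abs_nonneg _, by rw [sq_abs]; exact hγ⟩

theorem lr_notDisj [Nonempty V] (σ : Pairing V q) :
    frac (fun α => ¬ Disj σ α) ≤ 2 * (q + 1) ^ 2 / Fintype.card V := by
  have h1 : ∀ i j : Fin (q + 1), frac (fun α : Fin (q + 1) → HE V q =>
      i ≠ j ∧ (α i = α j ∨ α i = σ (α j))) ≤ 2 / Fintype.card V := by
    intro i j
    refine lr_frac_update i (by positivity) fun α => le_trans
      (p_frac_le_card (T := {α j, σ (α j)}) (t := 2) (fun x hx => ?_) ?_) (p_div_HE (by norm_num))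
    · simpa [Function.update_of_ne hx.1.symm] using hx.2
    · exact_mod_cast Finset.card_le_two
  have h2 := lr_frac_exists_le _ fun i => lr_frac_exists_le _ (h1 i)
  refine (p_frac_mono fun α hα => ?_).trans (h2.trans (le_of_eq ?_))
  · unfold Disj at hα
    push Not at hα
    obtain ⟨i, j, hij, h⟩ := hα
    exact ⟨i, j, hij, by tauto⟩
  · simp only [Fintype.card_fin]; push_cast; ring

theorem lr_good_mono (hZ : StZC) (hz : 0 < z.im) {T : ℝ} {c : Cfg V q} {h : HE V q}
    (hg : good s z T (1 / 50) c h) : good s z T (1 / 10) c h := by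
  refine ⟨hg.1.trans ?_, hg.2⟩
  have h1 := (hZ.pos q s z V c h hz).1
  have h2 := (hZ.pos q s z V c (c.1 h) hz).1
  gcongr
  norm_num

theorem lr_notSep [Nonempty V] (hZ : StZC) (hz : 0 < z.im) {T ε' p : ℝ} (hp : 0 ≤ p) (c : Cfg V q)
    (hW : ∀ S : Finset V, S.card ≤ 2 → (frac fun h : HE V q => good s z T (1 / 10) c h ∧
      ¬ Dcp (Gr (Hm s c) z) ε' S (ends c.1 h)) ≤ p) (i : Fin (q + 1)) :
    frac (fun α => ¬ Sep s z c α (Finset.univ.erase i) ε' ε) ≤
      (q + 1) * (frac (fun h => ¬ dec s z ε c h) + (q + 1) * (bad s z T (1 / 50) c + p)) := by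
  have hb : 0 ≤ bad s z T (1 / 50) c := p_frac_nonneg _
  have h1 : ∀ j k : Fin (q + 1), frac (fun α : Fin (q + 1) → HE V q =>
      k ≠ j ∧ ¬ Dcp (Gr (Hm s c) z) ε' (ends c.1 (α k)) (ends c.1 (α j))) ≤
        bad s z T (1 / 50) c + p := by
    intro j k
    refine lr_frac_update j (by positivity) fun α => le_trans (p_frac_or_le fun x hx => ?_)
      (add_le_add le_rfl (hW {(α k).1, (c.1 (α k)).1} Finset.card_le_two))
    by_cases hg : good s z T (1 / 50) c x
    · refine Or.inr ⟨lr_good_mono hZ hz hg, ?_⟩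
      simpa [Function.update_of_ne hx.1, ends] using hx.2
    · exact Or.inl hg
  have h2 := lr_frac_exists_le (fun j (α : Fin (q + 1) → HE V q) => ¬ dec s z ε c (α j) ∨
      ∃ k, k ≠ j ∧ ¬ Dcp (Gr (Hm s c) z) ε' (ends c.1 (α k)) (ends c.1 (α j))) fun j =>
    (p_frac_or _ _).trans (add_le_add (lr_frac_eval (fun h => ¬ dec s z ε c h) j)
      (lr_frac_exists_le _ (h1 j)))
  refine (p_frac_mono fun α hα => ?_).trans (h2.trans (le_of_eq ?_))
  · by_contra hc
    push Not at hc
    refine hα fun j hj => ⟨(hc j).1, ?_, fun k _ hk => (hc j).2 k hk⟩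
    have : (⋃ k ∉ Finset.univ.erase i, ends c.1 (α k)) = ends c.1 (α i) := by
      ext v; simp
    rw [this]
    exact (hc j).2 i (Finset.ne_of_mem_erase hj).symm
  · simp only [Fintype.card_fin]; push_cast; ring

end Crest.Agent.R166
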