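import Crest.Agent.R166.LR.Det

/-!
# Row 166, block LR: the glued expectation is small
-/

set_option autoImplicit false
set_option linter.unusedSectionVars false

open MeasureTheory ProbabilityTheory Filter Topology Complex
open scoped ENNReal BigOperators

noncomputable section

namespace Crest.Agent.R166

variable {q R : ℕ} {s : ℝ} {z : ℂ} {Λ ε ε₂ : ℝ} {F : ℂ × Env q → ℝ} {n₁ lm N : ℕ} {T₁ θ : ℝ}
  {Ω : ℕ → FamP q}

/-- smoothed indicator -/
def lr_w (Ω : ℕ → FamP q) (N r : ℕ) (V : Type) [Fintype V] [DecidableEq V] (c : Cfg V q) : ℝ :=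
  avg fun l : Fin N => ind (Ω (2 * l + r) V c)

/-- the family to which the gluing identity is applied -/
def lr_g (π : Measure II) (s : ℝ) (z : ℂ) (F : ℂ × Env q → ℝ) (Ω : ℕ → FamP q) (N : ℕ) : FamH q :=
  fun V _ _ c h => lr_w Ω N 0 V c * (RA s z F c - RB π s z F c) *
    (F (Yc s z c h, view c h) - RB π s z F c) / 4

variable {V : Type} [Fintype V] [DecidableEq V]

theorem lr_w_nonneg (r : ℕ) (c : Cfg V q) : 0 ≤ lr_w Ω N r V c :=
  p_avg_nonneg fun _ => lr_ind_nonneg _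

theorem lr_w_le_one (r : ℕ) (c : Cfg V q) : lr_w Ω N r V c ≤ 1 :=
  p_avg_le zero_le_one fun _ => lr_ind_le_one _

theorem lr_mono (hL : Lev q s z n₁ lm T₁ θ Ω) {l l' : ℕ} (h : l ≤ l') {c : Cfg V q}
    (hc : Ω l V c) : Ω l' V c := by
  induction h with
  | refl => exact hc
  | step _ ih => exact hL.mono _ _ _ ih

theorem lr_w_ge (hL : Lev q s z n₁ lm T₁ θ Ω) (hN : 1 ≤ N) (c : Cfg V q) :
    ind (Ω 0 V c) ≤ lr_w Ω N 0 V c := by
  have : Nonempty (Fin N) := ⟨⟨0, hN⟩⟩
  rw [← p_avg_const (ι := Fin N) (ind (Ω 0 V c))]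
  exact p_avg_mono fun l => lr_ind_mono (lr_mono hL (Nat.zero_le _))

theorem lr_w_le (hL : Lev q s z n₁ lm T₁ θ Ω) (c : Cfg V q) :
    lr_w Ω N 1 V c ≤ ind (Ω (2 * N + 1) V c) :=
  p_avg_le (lr_ind_nonneg _) fun l => lr_ind_mono (lr_mono hL (by have := l.2; omega))

theorem lr_w_glue (hL : Lev q s z n₁ lm T₁ θ Ω) (hlm : 2 * N + 2 ≤ lm)
    (hn : n₁ ≤ Fintype.card V) {c : Cfg V q} {α : Fin (q + 1) → HE V q} (w : Fin 2 → II)
    (hD : Disj c.1 α) : |lr_w Ω N 0 _ (glueC c α w) - lr_w Ω N 1 V c| ≤ 1 / N := by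
  have h1 : lr_w Ω N 0 _ (glueC c α w) ≤ lr_w Ω N 1 V c := p_avg_mono fun l =>
    lr_ind_mono (hL.unglue _ V c α w (by have := l.2; omega) hn hD)
  have h2 : lr_w Ω N 1 V c ≤ lr_w Ω N 2 _ (glueC c α w) := p_avg_mono fun l =>
    lr_ind_mono (hL.glue _ V c α w (by have := l.2; omega) hn hD)
  have h3 : lr_w Ω N 2 _ (glueC c α w) ≤ lr_w Ω N 0 _ (glueC c α w) + 1 / N := by
    unfold lr_w avg
    rw [Fintype.card_fin, ← add_div]
    gcongr
    have e1 := Fin.sum_univ_eq_sum_range (fun l => ind (Ω (2 * l + 2) _ (glueC c α w))) N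
    have e2 := Fin.sum_univ_eq_sum_range (fun l => ind (Ω (2 * l + 0) _ (glueC c α w))) N
    have e3 := Finset.sum_range_succ (fun l => ind (Ω (2 * l + 0) _ (glueC c α w))) N
    have e4 := Finset.sum_range_succ' (fun l => ind (Ω (2 * l + 0) _ (glueC c α w))) N
    have e5 := lr_ind_le_one (Ω (2 * N + 0) _ (glueC c α w))
    have e6 := lr_ind_nonneg (Ω (2 * 0 + 0) _ (glueC c α w))
    have e7 : ∑ l ∈ Finset.range N, ind (Ω (2 * (l + 1) + 0) _ (glueC c α w)) =
      ∑ l ∈ Finset.range N, ind (Ω (2 * l + 2) _ (glueC c α w)) := rfl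
    linarith
  have : (0 : ℝ) ≤ 1 / N := by positivity
  rw [abs_le]
  constructor <;> linarith

theorem lr_meas_w (hL : Lev q s z n₁ lm T₁ θ Ω) (r : ℕ) : Measurable (lr_w Ω N r V) :=
  lr_meas_avg fun _ => lr_meas_ind (hL.meas _ V)

theorem lr_g_OK (hK : StKit) (π : Measure II) [IsProbabilityMeasure π]
    (hL : Lev q s z n₁ lm T₁ θ Ω) (hF : Measurable F) : (lr_g π s z F Ω N).OK := by
  refine ⟨fun V V' _ _ _ _ e c h => ?_, fun V _ _ h => ?_⟩
  · simp only [lr_g, lr_w, hL.inv, hK.inv_RA, hK.inv_RB, hK.inv_Yc, hK.inv_view]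
  · exact (((lr_meas_w hL 0).mul ((hK.meas_RA q s z V F hF).sub (hK.meas_RB q π s z V F hF))).mul
      ((hF.comp ((hK.meas_Yc q s z V h).prodMk (hK.meas_view q V h))).sub
        (hK.meas_RB q π s z V F hF))).div_const 4

theorem lr_prod_abs {w a b c d : ℝ} (h0 : |w| ≤ 1) (ha : |a| ≤ 1) (hb : |b| ≤ 1) (hc : |c| ≤ 1)
    (hd : |d| ≤ 1) : |w * (a - b) * (c - d) / 4| ≤ 1 := by
  have h1 : |a - b| ≤ 2 := (abs_sub _ _).trans (by linarith)
  have h2 : |c - d| ≤ 2 := (abs_sub _ _).trans (by linarith)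
  rw [abs_div, abs_mul, abs_mul, abs_of_pos (by norm_num : (0 : ℝ) < 4), div_le_one (by norm_num)]
  calc |w| * |a - b| * |c - d| ≤ 1 * 2 * 2 := by gcongr
    _ = 4 := by norm_num

theorem lr_g_abs (π : Measure II) [IsProbabilityMeasure π] (hF : TestF Λ ε₂ R F) (c : Cfg V q)
    (h : HE V q) : |lr_g π s z F Ω N V c h| ≤ 1 :=
  lr_prod_abs (abs_le.2 ⟨by linarith [lr_w_nonneg (Ω := Ω) (N := N) 0 c], lr_w_le_one 0 c⟩)
    (lr_RA_abs hF c) (lr_RB_abs π hF c) (hF.2.1 _) (lr_RB_abs π hF c)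

theorem lr_g_avg [Nonempty V] (π : Measure II) (c : Cfg V q) :
    avg (lr_g π s z F Ω N V c) = lr_w Ω N 0 V c * (RA s z F c - RB π s z F c) ^ 2 / 4 := by
  have : lr_g π s z F Ω N V c = fun h => lr_w Ω N 0 V c * (RA s z F c - RB π s z F c) / 4 *
      (F (Yc s z c h, view c h) - RB π s z F c) := by
    ext h; unfold lr_g; ring
  rw [this, p_avg_mul, b0_avg_sub, p_avg_const]
  change _ * (RA s z F c - _) = _
  ring

theorem lr_alg {w w' A A' B B' X X' a b d η : ℝ} (hw : |w' - w| ≤ η) (hw0 : 0 ≤ w)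
    (hA' : |A'| ≤ 1) (hA : |A| ≤ 1) (hB' : |B'| ≤ 1) (hB : |B| ≤ 1) (hX' : |X'| ≤ 1)
    (ha : |A' - A| ≤ a) (hb : |B' - B| ≤ b) (hd : |X' - X| ≤ d) :
    w' * (A' - B') * (X' - B') / 4 ≤ w * (A - B) / 4 * (X - B) + η + w * ((a + 2 * b + d) / 2) := by
  have h1 : |A' - B'| ≤ 2 := (abs_sub _ _).trans (by linarith)
  have h2 : |X' - B'| ≤ 2 := (abs_sub _ _).trans (by linarith)
  have h3 : |A - B| ≤ 2 := (abs_sub _ _).trans (by linarith)
  have h4 : |(w' - w) * (A' - B') * (X' - B')| ≤ η * 2 * 2 := by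
    have := (abs_nonneg _).trans hw
    rw [abs_mul, abs_mul]; gcongr
  have h5 : |((A' - A) - (B' - B)) * (X' - B')| ≤ (a + b) * 2 := by
    rw [abs_mul]; gcongr
    · linarith [abs_nonneg (A' - A), abs_nonneg (B' - B)]
    · exact (abs_sub _ _).trans (by linarith)
  have h6 : |(A - B) * ((X' - X) - (B' - B))| ≤ 2 * (d + b) := by
    rw [abs_mul]; gcongr
    exact (abs_sub _ _).trans (by linarith)
  have h7 := mul_le_mul_of_nonneg_left (add_le_add (abs_le.1 h5).2 (abs_le.1 h6).2) hw0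
  nlinarith [(abs_le.1 h4).2]

/-- some view at a glued edge is changed -/
def lr_vc (R : ℕ) (c : Cfg V q) (α : Fin (q + 1) → HE V q) (w : Fin 2 → II) : Prop :=
  ∃ j, ¬ Agree R (view (glueC c α w) (inlH (c.1 (α j)))) (view c (c.1 (α j)))

theorem lr_meas_vc (hK : StKit) : Measurable fun p : Cfg V q × (Fin 2 → II) =>
    avg fun α => if Disj p.1.1 α then ind (lr_vc R p.1 α p.2) else 0 := by
  have hσ : ∀ P : Pairing V q → Prop, MeasurableSet {p : Cfg V q × (Fin 2 → II) | P p.1.1} :=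
    fun P => (measurable_fst.comp measurable_fst) (MeasurableSet.of_discrete (s := {σ | P σ}))
  refine lr_meas_avg fun α => Measurable.ite (hσ fun σ => Disj σ α) (lr_meas_ind ?_)
    measurable_const
  have e : {p : Cfg V q × (Fin 2 → II) | lr_vc R p.1 α p.2} = ⋃ j, ⋃ h : HE V q,
      {p | p.1.1 (α j) = h} ∩ ⋃ l : List (Fin q), ⋃ _ : l.length ≤ R,
        {p | view (glueC p.1 α p.2) (inlH h) l = view p.1 h l}ᶜ := by
    ext p; simp [lr_vc, Agree]
  rw [e]
  refine MeasurableSet.iUnion fun j => MeasurableSet.iUnion fun h =>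
    (hσ fun σ => σ (α j) = h).inter (MeasurableSet.iUnion fun l => MeasurableSet.iUnion fun _ =>
      MeasurableSet.compl (measurableSet_eq_fun ?_ ?_))
  · exact (measurable_pi_apply l).comp ((hK.meas_view q _ _).comp (hK.meas_glue q V α))
  · exact (measurable_pi_apply l).comp ((hK.meas_view q _ _).comp measurable_fst)

theorem lr_key [Nonempty V] (hK : StKit) (hZ : StZC) (π : Measure II) [IsProbabilityMeasure π]
    (hz : 0 < z.im) (hL : Lev q s z n₁ lm T₁ θ Ω) (hlm : 2 * N + 2 ≤ lm)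
    (hn : n₁ ≤ Fintype.card V) (hΛ : 0 ≤ Λ) (hε : 0 ≤ ε) (hε₂ : 0 ≤ ε₂) (hF : TestF Λ ε₂ R F)
    (i : Fin (q + 1)) {T ε' γ P₁ P₂ P₃ β δ : ℝ} (h₁ : 0 ≤ P₁) (h₂ : 0 ≤ P₂)
    (hu : ∀ (c : Cfg V q) α w, Disj c.1 α →
      frac (lr_chg s z ε R c α w) ≤ bad s z T (1 / 50) c + P₁)
    (hS : ∀ c : Cfg V q, frac (fun α => ¬ Sep s z c α (Finset.univ.erase i) ε' ε) ≤
      (q + 1) * (frac (fun h => ¬ dec s z ε c h) + (q + 1) * (bad s z T (1 / 50) c + P₂)))
    (hG : ∀ (c : Cfg V q) α w, Disj c.1 α → Sep s z c α (Finset.univ.erase i) ε' ε →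
      gam (Yc s z (glueC c α w) (oH V i)) (-(z - s * (w 0 : ℝ) + 0 +
        ∑ j ∈ (Finset.univ.erase i).erase i, Yc s z c (c.1 (α j)))⁻¹) ≤ γ ^ 2)
    (hV : (gE (q := q) π V fun c α w => ind (lr_vc R c α w)) ≤ P₃)
    (hβ : betaW π s z (Ω (2 * N + 1)) T V ≤ β)
    (hδ : ∫ c, ind (Ω (2 * N + 1) V c) * frac (fun h => ¬ dec s z ε c h) ∂cfgLaw V q π ≤ δ) :
    (gE π V fun c α w => lr_g π s z F Ω N (V ⊕ Fin 2) (glueC c α w) (oH V i)) ≤
      (2 * (q + 1) ^ 2 / Fintype.card V + 1 / N + (3 / 2 * (Λ * ε) + Λ * |γ| / 2 + 2 * ε₂ +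
        (1 + 2 * q) * P₁ + (2 + 4 * q) / Fintype.card V + (q + 1) ^ 2 * P₂)) +
        ((1 + 2 * q) + (q + 1) ^ 2) * β + (q + 1) * δ + P₃ := by
  have := hK.law_le q π V
  set K₀ : ℝ := 3 / 2 * (Λ * ε) + Λ * |γ| / 2 + 2 * ε₂ + (1 + 2 * q) * P₁ +
    (2 + 4 * q) / Fintype.card V + (q + 1) ^ 2 * P₂ with hK₀
  have hK0 : 0 ≤ K₀ := by positivity
  set K₁ : ℝ := 2 * (q + 1) ^ 2 / Fintype.card V + 1 / N + K₀ with hK₁
  have hK1 : 0 ≤ K₁ := by positivity
  let vc : Cfg V q → (Fin 2 → II) → ℝ := fun c w =>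
    avg fun α => if Disj c.1 α then ind (lr_vc R c α w) else 0
  have vc0 : ∀ c w, 0 ≤ vc c w := fun c w => p_avg_nonneg fun α => by
    split_ifs; exacts [lr_ind_nonneg _, le_rfl]
  have vc1 : ∀ c w, |vc c w| ≤ 1 := fun c w => by
    rw [abs_of_nonneg (vc0 c w)]
    exact p_avg_le zero_le_one fun α => by split_ifs; exacts [lr_ind_le_one _, zero_le_one]
  have mvc : Measurable (Function.uncurry vc) := lr_meas_vc hK
  let b : Cfg V q → ℝ := fun c => ind (Ω (2 * N + 1) V c) * bad s z T (1 / 50) c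
  let d : Cfg V q → ℝ := fun c => ind (Ω (2 * N + 1) V c) * frac (fun h => ¬ dec s z ε c h)
  have b0 : ∀ c, 0 ≤ b c := fun c => mul_nonneg (lr_ind_nonneg _) (p_frac_nonneg _)
  have d0 : ∀ c, 0 ≤ d c := fun c => mul_nonneg (lr_ind_nonneg _) (p_frac_nonneg _)
  have ib : Integrable b (cfgLaw V q π) := lr_integrable
    ((lr_meas_ind (hL.meas _ V)).mul (hK.meas_bad q s z T _ V)) (C := 1) fun c => by
      rw [abs_of_nonneg (b0 c)]
      exact mul_le_one₀ (lr_ind_le_one _) (p_frac_nonneg _) (p_frac_le_one _)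
  have id' : Integrable d (cfgLaw V q π) := lr_integrable
    ((lr_meas_ind (hL.meas _ V)).mul
      (lr_meas_avg fun h => lr_meas_ind (hK.meas_dec q s z ε V h).compl)) (C := 1) fun c => by
      rw [abs_of_nonneg (d0 c)]
      exact mul_le_one₀ (lr_ind_le_one _) (p_frac_nonneg _) (p_frac_le_one _)
  have iv : Integrable (fun c => ∫ w, vc c w ∂Measure.pi fun _ => π) (cfgLaw V q π) :=
    lr_integrable (mvc.stronglyMeasurable.integral_prod_right).measurable fun c =>
      lr_abs_integral_le (vc1 c)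
  have inner : ∀ c : Cfg V q, ∫ w, (avg fun α => if Disj c.1 α then
      lr_g π s z F Ω N (V ⊕ Fin 2) (glueC c α w) (oH V i) else 0) ∂(Measure.pi fun _ => π) ≤
      K₁ + ((1 + 2 * q) + (q + 1) ^ 2) * b c + (q + 1) * d c +
        ∫ w, vc c w ∂Measure.pi fun _ => π := by
    intro c
    obtain ⟨iF, eF⟩ := lr_Ft_int (s := s) (z := z) π hF c i
    have ivc : Integrable (vc c) (Measure.pi fun _ => π) :=
      lr_integrable (mvc.comp measurable_prodMk_left) (vc1 c)
    set m := lr_w Ω N 1 V c * (RA s z F c - RB π s z F c) / 4 with hm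
    set K₂ := K₁ + ((1 + 2 * q) + (q + 1) ^ 2) * b c + (q + 1) * d c with hK₂
    have hK2 : 0 ≤ K₂ := by have := b0 c; have := d0 c; positivity
    have i1 : Integrable (fun w : Fin 2 → II =>
        m * ((avg fun α => lr_Ft s z F c i α (w 0)) - RB π s z F c)) (Measure.pi fun _ => π) :=
      (iF.sub (integrable_const _)).const_mul m
    have i2 : Integrable (fun w : Fin 2 → II =>
        m * ((avg fun α => lr_Ft s z F c i α (w 0)) - RB π s z F c) + K₂) (Measure.pi fun _ => π) :=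
      i1.add (integrable_const _)
    have e : ∫ w : Fin 2 → II, (m * ((avg fun α => lr_Ft s z F c i α (w 0)) - RB π s z F c) + K₂ +
        vc c w) ∂(Measure.pi fun _ => π) = K₂ + ∫ w, vc c w ∂Measure.pi fun _ => π := by
      rw [integral_add i2 ivc, integral_add i1 (integrable_const _), integral_const_mul,
        integral_sub iF (integrable_const _), eF]
      simp
    rw [← e]
    refine lr_integral_le (i2.add ivc) (by
      rw [e]; exact add_nonneg hK2 (integral_nonneg (vc0 c))) fun w => ?_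
    have w0 := lr_w_nonneg (Ω := Ω) (N := N) 1 c
    have w1 := lr_w_le_one (Ω := Ω) (N := N) 1 c
    have w2 := lr_w_le (N := N) hL c
    set u := bad s z T (1 / 50) c + P₁ with hu'
    have bad0 : 0 ≤ bad s z T (1 / 50) c := p_frac_nonneg _
    set K₃ := 3 / 2 * (Λ * ε) + Λ * |γ| / 2 + 2 * ε₂ + (1 + 2 * q) * u +
      (2 + 4 * q) / Fintype.card V with hK₃
    have hK3 : 0 ≤ K₃ := by positivity
    refine le_trans (p_avg_mono (g := fun α => m * (lr_Ft s z F c i α (w 0) - RB π s z F c) +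
      ind (¬ Disj c.1 α) + (1 / N + lr_w Ω N 1 V c * K₃) +
      lr_w Ω N 1 V c * ind (¬ Sep s z c α (Finset.univ.erase i) ε' ε) +
      if Disj c.1 α then ind (lr_vc R c α w) else 0) fun α => ?_) ?_
    · have s0 := lr_ind_nonneg (¬ Sep s z c α (Finset.univ.erase i) ε' ε)
      have v0 := lr_ind_nonneg (lr_vc R c α w)
      by_cases hD : Disj c.1 α
      · simp only [if_pos hD, lr_ind_neg (not_not.2 hD)]
        have a1 := lr_RA (s := s) hZ hz hΛ hε hε₂ hF c α w
        have a2 := lr_RB (s := s) π hZ hz hΛ hε hε₂ hF c α w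
        have a3 : |F (Yc s z (glueC c α w) (oH V i), view (glueC c α w) (oH V i)) -
            lr_Ft s z F c i α (w 0)| ≤ Λ * |γ| + ε₂ +
              2 * ind (¬ Sep s z c α (Finset.univ.erase i) ε' ε) + 2 * ind (lr_vc R c α w) := by
          have t0 : 0 ≤ Λ * |γ| + ε₂ := by positivity
          have t1 : |F (Yc s z (glueC c α w) (oH V i), view (glueC c α w) (oH V i)) -
              lr_Ft s z F c i α (w 0)| ≤ 2 :=
            (abs_sub _ _).trans (add_le_add (hF.2.1 _) (hF.2.1 _) |>.trans (by norm_num))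
          by_cases h1 : Sep s z c α (Finset.univ.erase i) ε' ε
          · by_cases h2 : lr_vc R c α w
            · rw [lr_ind_pos h2]; linarith
            · have := lr_FO hK hZ hz hΛ hF w hD i (hG c α w hD h1)
                fun j => not_not.1 (not_exists.1 h2 j)
              linarith
          · rw [lr_ind_pos h1]; linarith
        have a4 := hu c α w hD
        have a5 := mul_le_mul_of_nonneg_left a4 (Nat.cast_nonneg (α := ℝ) q)
        have key := lr_alg (lr_w_glue hL hlm hn w hD) w0 (lr_RA_abs hF _) (lr_RA_abs hF _)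
          (lr_RB_abs π hF _) (lr_RB_abs π hF _) (hF.2.1 _) a1 a2 a3
        refine key.trans ?_
        have a6 : (Λ * ε + ε₂ + 2 * frac (lr_chg s z ε R c α w) + 4 / Fintype.card V +
            2 * (Λ * ε + ε₂ + 2 * (q * frac (lr_chg s z ε R c α w)) + 4 * q / Fintype.card V) +
            (Λ * |γ| + ε₂ + 2 * ind (¬ Sep s z c α (Finset.univ.erase i) ε' ε) +
              2 * ind (lr_vc R c α w))) / 2 ≤
            K₃ + ind (¬ Sep s z c α (Finset.univ.erase i) ε' ε) + ind (lr_vc R c α w) := by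
          have : (2 + 4 * q) / (Fintype.card V : ℝ) =
            (4 / Fintype.card V + 2 * (4 * q / Fintype.card V)) / 2 := by ring
          rw [hK₃, this]; linarith
        have a7 := mul_le_mul_of_nonneg_left a6 w0
        have a8 := mul_le_mul_of_nonneg_right w1 v0
        rw [← hm]
        linarith
      · simp only [if_neg hD, lr_ind_pos hD]
        have t1 := lr_prod_abs (abs_le.2 ⟨by linarith, w1⟩) (lr_RA_abs (s := s) (z := z) hF c)
          (lr_RB_abs (s := s) (z := z) π hF c) (hF.2.1 (Psi s z (w 0)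
            (fun j => Yc s z c (c.1 (α (i + j.succ)))),
            cons (w 0) fun j => view c (c.1 (α (i + j.succ))))) (lr_RB_abs (s := s) (z := z) π hF c)
        have t2 : m * (lr_Ft s z F c i α (w 0) - RB π s z F c) = lr_w Ω N 1 V c *
            (RA s z F c - RB π s z F c) * (lr_Ft s z F c i α (w 0) - RB π s z F c) / 4 := by
          rw [hm]; ring
        have t3 : 0 ≤ 1 / (N : ℝ) + lr_w Ω N 1 V c * K₃ := by positivity
        have t4 := mul_nonneg w0 s0
        have t5 := (abs_le.1 t1).1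
        rw [t2]
        unfold lr_Ft
        linarith
    · rw [p_avg_add, p_avg_add, p_avg_add, p_avg_add, p_avg_mul, p_avg_mul, b0_avg_sub, p_avg_const,
        p_avg_const, ← lr_frac_eq, ← lr_frac_eq]
      have t1 := lr_notDisj c.1
      have t2 := mul_le_mul_of_nonneg_left (hS c) w0
      have t3 : lr_w Ω N 1 V c * bad s z T (1 / 50) c ≤ b c := mul_le_mul_of_nonneg_right w2 bad0
      have t4 : lr_w Ω N 1 V c * frac (fun h => ¬ dec s z ε c h) ≤ d c :=
        mul_le_mul_of_nonneg_right w2 (p_frac_nonneg _)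
      have t5 := mul_le_mul_of_nonneg_right w1 hK0
      have t6 := mul_le_mul_of_nonneg_left t3 (by positivity : (0 : ℝ) ≤ (1 + 2 * q) + (q + 1) ^ 2)
      have t7 := mul_le_mul_of_nonneg_left t4 (by positivity : (0 : ℝ) ≤ q + 1)
      have t8 : lr_w Ω N 1 V c * K₃ + lr_w Ω N 1 V c * ((q + 1) *
          (frac (fun h => ¬ dec s z ε c h) + (q + 1) * (bad s z T (1 / 50) c + P₂))) =
          lr_w Ω N 1 V c * K₀ + ((1 + 2 * q) + (q + 1) ^ 2) *
            (lr_w Ω N 1 V c * bad s z T (1 / 50) c) +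
            (q + 1) * (lr_w Ω N 1 V c * frac (fun h => ¬ dec s z ε c h)) := by
        rw [hK₃, hK₀, hu']; ring
      change _ ≤ _ + vc c w
      rw [hK₂, hK₁]
      linarith
  have i1 : Integrable (fun c => K₁ + ((1 + 2 * q) + (q + 1) ^ 2) * b c) (cfgLaw V q π) :=
    (integrable_const _).add (ib.const_mul _)
  have i2 : Integrable (fun c => K₁ + ((1 + 2 * q) + (q + 1) ^ 2) * b c + (q + 1) * d c)
      (cfgLaw V q π) := i1.add (id'.const_mul _)
  have i3 : Integrable (fun c => K₁ + ((1 + 2 * q) + (q + 1) ^ 2) * b c + (q + 1) * d c +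
      ∫ w, vc c w ∂Measure.pi fun _ => π) (cfgLaw V q π) := i2.add iv
  refine le_trans (lr_integral_le i3 (integral_nonneg fun c => ?_) inner) ?_
  · have := b0 c; have := d0 c
    have : 0 ≤ ∫ w, vc c w ∂Measure.pi fun _ => π := integral_nonneg (vc0 c)
    simp only [Pi.zero_apply]
    positivity
  · rw [integral_add i2 iv, integral_add i1 (id'.const_mul _),
      integral_add (integrable_const _) (ib.const_mul _), integral_const_mul, integral_const_mul]
    have t1 := lr_integral_const_le (cfgLaw V q π) hK1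
    have t2 := mul_le_mul_of_nonneg_left hβ (by positivity : (0 : ℝ) ≤ (1 + 2 * q) + (q + 1) ^ 2)
    have t3 := mul_le_mul_of_nonneg_left hδ (by positivity : (0 : ℝ) ≤ q + 1)
    exact add_le_add (add_le_add (add_le_add t1 t2) t3) hV

end Crest.Agent.R166
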