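import Crest.Agent.R166.LR.Key

/-!
# Row 166, block LR: `stRDE`
-/

set_option autoImplicit false

open MeasureTheory ProbabilityTheory Filter Topology Complex
open scoped ENNReal BigOperators

noncomputable section

namespace Crest.Agent.R166

theorem lr_final {q x e₂ y β δ p r CG CS CW CL CV : ℝ} (hq : 0 ≤ q) (hx : 0 ≤ x) (he : 0 ≤ e₂)
    (hy : 0 ≤ y) (hβ : 0 ≤ β) (hδ : 0 ≤ δ) (hp : 0 ≤ p) (hS : 0 ≤ CS) (hW : 0 ≤ CW)
    (hL : 0 ≤ CL) :
    4 * ((2 * (q + 1) ^ 2 * r + y + (3 / 2 * x + CL * x + 2 * e₂ + (1 + 2 * q) * (CS * p + CV * r) +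
      (2 + 4 * q) * r + (q + 1) ^ 2 * (CW * p))) + ((1 + 2 * q) + (q + 1) ^ 2) * β + (q + 1) * δ +
      CV * r + CG * r) ≤
    4 * (2 + CL + (1 + 2 * q) + (q + 1) ^ 2 + (1 + 2 * q) * CS + (q + 1) ^ 2 * CW) *
      (x + e₂ + y + β + δ + p) +
      4 * (2 * (q + 1) ^ 2 + (2 + 2 * q) * CV + (2 + 4 * q) + CG) * r := by
  set A := 2 + CL + (1 + 2 * q) + (q + 1) ^ 2 + (1 + 2 * q) * CS + (q + 1) ^ 2 * CW with hA
  have a1 : 0 ≤ (q + 1) ^ 2 := by positivity
  have a2 : 0 ≤ (1 + 2 * q) * CS := by positivity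
  have a3 : 0 ≤ (q + 1) ^ 2 * CW := by positivity
  have b1 := mul_le_mul_of_nonneg_right (by linarith : 3 / 2 + CL ≤ A) hx
  have b2 := mul_le_mul_of_nonneg_right (by linarith : 2 ≤ A) he
  have b3 := mul_le_mul_of_nonneg_right (by linarith : 1 ≤ A) hy
  have b4 := mul_le_mul_of_nonneg_right (by linarith : (1 + 2 * q) + (q + 1) ^ 2 ≤ A) hβ
  have b5 := mul_le_mul_of_nonneg_right (by linarith : q + 1 ≤ A) hδ
  have b6 := mul_le_mul_of_nonneg_right
    (by linarith : (1 + 2 * q) * CS + (q + 1) ^ 2 * CW ≤ A) hp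
  nlinarith

theorem stRDE (hK : StKit) (hGX : StGX) (hView : StView) (hW : StW) (hStab : StStab) (hGL : StGL)
    (hZ : StZC) : StRDE := by
  intro q _
  obtain ⟨CG, hG⟩ := hGX q
  obtain ⟨CW, hW⟩ := hW
  obtain ⟨CS, hS⟩ := hStab q
  obtain ⟨CL, ε₀, hε₀, hL⟩ := hGL q
  set ε₁ := min ε₀ 1 with hε₁
  have h₁ : 0 < ε₁ := lt_min hε₀ one_pos
  refine ⟨4 * (2 + |CL| + (1 + 2 * q) + (q + 1) ^ 2 + (1 + 2 * q) * |CS| +
    (q + 1) ^ 2 * (2 * |CW| / ε₁ ^ 2)), fun R => ?_⟩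
  obtain ⟨CV, hV⟩ := hView q R
  refine ⟨4 * (2 * (q + 1) ^ 2 + (2 + 2 * q) * |CV| + (2 + 4 * q) + |CG|), ?_⟩
  intro π _ s z n₁ lm N T₁ θ T ε Λ ε₂ β δ Ω F V V' _ _ _ _ hz hLev hn₁ hN hlm hn hV' hT hzT hε hε'
    hΛ hε₂ hF hβ hδ
  have hc : 1 ≤ Fintype.card V := hn₁.trans hn
  have : Nonempty V := Fintype.card_pos_iff.1 hc
  have : Nonempty V' := Fintype.card_pos_iff.1 (by omega)
  have := hK.law_le q π V'
  have hn₁' : (0 : ℝ) < n₁ := by exact_mod_cast hn₁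
  have hn' : (n₁ : ℝ) ≤ Fintype.card V := by exact_mod_cast hn
  have hc' : (0 : ℝ) < Fintype.card V := hn₁'.trans_le hn'
  have hT0 : 0 ≤ T := by linarith
  set p := T ^ 3 / (n₁ * z.im * ε ^ 2) with hp
  have hp0 : 0 ≤ p := by positivity
  have hpp : T ^ 3 / (Fintype.card V * z.im * ε ^ 2) ≤ p := by rw [hp]; gcongr
  have hdiv : ∀ C : ℝ, C / Fintype.card V ≤ |C| * (1 / n₁) := fun C => by
    rw [mul_one_div]
    calc C / Fintype.card V ≤ |C| / Fintype.card V := by gcongr; exact le_abs_self C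
      _ ≤ |C| / n₁ := by gcongr
  have hβ0 : 0 ≤ β := le_trans (integral_nonneg fun c =>
    mul_nonneg (lr_ind_nonneg _) (p_frac_nonneg _)) hβ
  have hδ0 : 0 ≤ δ := le_trans (integral_nonneg fun c =>
    mul_nonneg (lr_ind_nonneg _) (p_frac_nonneg _)) hδ
  have hOK := lr_g_OK (N := N) hK π hLev hF.1
  have g1 := (abs_le.1 (hG π V V' _ hOK hc hV' fun W _ _ c h => lr_g_abs π hF c h).1).2
  have g2 := fun i : Fin (q + 1) => lr_key (ε' := ε₁ * ε) (γ := CL * (ε₁ * ε + ε))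
    (P₁ := |CS| * p + |CV| * (1 / n₁)) (P₂ := 2 * |CW| / ε₁ ^ 2 * p) (P₃ := |CV| * (1 / n₁))
    hK hZ π hz hLev hlm hn hΛ hε.le hε₂ hF i (by positivity) (by positivity)
    (fun c α w hD => by
      have t1 := ((hS s z V c T (1 / 50) ε hz hzT hT (by norm_num) (by norm_num) hε (by linarith)
        hc).1 α w hD).1
      have t2 := ((hV V).1 c α w hD).trans (hdiv CV)
      have t3 : CS * T ^ 3 / (Fintype.card V * z.im * ε ^ 2) ≤ |CS| * p := by
        rw [mul_div_assoc]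
        exact mul_le_mul (le_abs_self _) hpp (by positivity) (abs_nonneg _)
      refine le_trans (p_frac_or_le (p₁ := fun h => ¬ good s z T (1 / 50) c h) fun h hh => ?_)
        (add_le_add le_rfl ((p_frac_or _ _).trans (add_le_add (t1.trans t3) t2)))
      unfold lr_chg at hh
      tauto)
    (fun c => lr_notSep hZ hz (by positivity) c (fun S hS2 => by
      refine (hW q s z V c S T (ε₁ * ε) hz hT0 (by positivity)).trans ?_
      have t1 : (S.card : ℝ) ≤ 2 := by exact_mod_cast hS2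
      calc CW * S.card * T ^ 3 / (Fintype.card V * z.im * (ε₁ * ε) ^ 2)
          = CW * S.card / ε₁ ^ 2 * (T ^ 3 / (Fintype.card V * z.im * ε ^ 2)) := by
            field_simp
        _ ≤ |CW| * 2 / ε₁ ^ 2 * p := by gcongr; exact le_abs_self _
        _ = _ := by ring) i)
    (fun c α w hD hSep => by
      obtain ⟨r, -, hr, h⟩ := (hL s z V c α w _ (ε₁ * ε) ε hz (by positivity)
        ((mul_le_of_le_one_right h₁.le (by linarith)).trans (min_le_left _ _)) hε.le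
        (by linarith) hD hSep).1 i
      rwa [hr fun j hj => Finset.mem_erase.2 ⟨hj, Finset.mem_univ _⟩] at h)
    (((hV V).2 π).trans (hdiv CV)) hβ hδ
  have g3 := p_avg_le (by positivity) g2
  have g4 : ∫ c, ind (Ω 0 V' c) * (RA s z F c - RB π s z F c) ^ 2 ∂cfgLaw V' q π ≤
      ∫ c, 4 * avg (lr_g π s z F Ω N V' c) ∂cfgLaw V' q π := by
    have t0 : ∀ c : Cfg V' q, 4 * avg (lr_g π s z F Ω N V' c) =
        lr_w Ω N 0 V' c * (RA s z F c - RB π s z F c) ^ 2 := fun c => by rw [lr_g_avg]; ring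
    refine lr_integral_le ((lr_integrable (lr_meas_avg fun h => hOK.meas V' h) fun c =>
      lr_abs_avg_le zero_le_one fun h => lr_g_abs π hF c h).const_mul 4)
      (integral_nonneg fun c => ?_) fun c => ?_
    · rw [Pi.zero_apply, t0]
      exact mul_nonneg (lr_w_nonneg 0 c) (sq_nonneg _)
    · rw [t0]
      exact mul_le_mul_of_nonneg_right (lr_w_ge hLev hN c) (sq_nonneg _)
  rw [integral_const_mul] at g4
  have g5 := lr_final (q := q) (x := Λ * ε) (y := 1 / N) (r := 1 / n₁) (CG := |CG|) (CV := |CV|)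
    (Nat.cast_nonneg q) (by positivity) hε₂ (by positivity) hβ0 hδ0 hp0 (abs_nonneg CS)
    (by positivity : 0 ≤ 2 * |CW| / ε₁ ^ 2) (abs_nonneg CL)
  have t1 := hdiv CG
  have t2 := hdiv (2 * (q + 1) ^ 2)
  have t3 := hdiv (2 + 4 * q)
  rw [abs_of_nonneg (by positivity)] at t2 t3
  have t4 : Λ * |CL * (ε₁ * ε + ε)| / 2 ≤ |CL| * (Λ * ε) := by
    have u1 : ε₁ * ε ≤ ε := mul_le_of_le_one_left hε.le (min_le_right _ _)
    rw [abs_mul, abs_of_nonneg (by positivity : 0 ≤ ε₁ * ε + ε)]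
    have := mul_le_mul_of_nonneg_left u1 (mul_nonneg hΛ (abs_nonneg CL))
    nlinarith
  rw [← mul_one_div _ (n₁ : ℝ)]
  linarith

end Crest.Agent.R166
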