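import Crest.Agent.R166.LL.Iface
import Crest.Agent.R166.P.Basic
import Crest.Agent.R166.T0.Tree
import Crest.Agent.R166.B0.Comb

/-!
# Row 166, block LR: averages over finite products, elementary integration lemmas
-/

set_option autoImplicit false
set_option linter.unusedSectionVars false

open MeasureTheory ProbabilityTheory Filter Topology Complex
open scoped ENNReal BigOperators

noncomputable section

namespace Crest.Agent.R166

theorem lr_ind_nonneg (p : Prop) : 0 ≤ ind p := by unfold ind; split_ifs <;> norm_num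

theorem lr_ind_le_one (p : Prop) : ind p ≤ 1 := by unfold ind; split_ifs <;> norm_num

theorem lr_ind_pos {p : Prop} (h : p) : ind p = 1 := by simp [ind, h]

theorem lr_ind_neg {p : Prop} (h : ¬ p) : ind p = 0 := by simp [ind, h]

theorem lr_ind_mono {p p' : Prop} (h : p → p') : ind p ≤ ind p' := by
  by_cases hp : p
  · rw [lr_ind_pos hp, lr_ind_pos (h hp)]
  · rw [lr_ind_neg hp]; exact lr_ind_nonneg _

theorem lr_meas_ind {X : Type} [MeasurableSpace X] {p : X → Prop} (h : MeasurableSet {x | p x}) :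
    Measurable fun x => ind (p x) := by
  unfold ind
  exact Measurable.ite h measurable_const measurable_const

section avg
variable {ι κ X : Type} [Fintype ι] [Fintype κ] [Fintype X]

theorem lr_frac_eq (p : ι → Prop) : frac p = avg fun i => ind (p i) := rfl

theorem lr_abs_avg_le {f : ι → ℝ} {c : ℝ} (hc : 0 ≤ c) (h : ∀ i, |f i| ≤ c) : |avg f| ≤ c :=
  (b0_abs_avg f).trans (p_avg_le hc h)

theorem lr_meas_avg {Y : Type} [MeasurableSpace Y] {f : Y → ι → ℝ}
    (h : ∀ i, Measurable fun y => f y i) : Measurable fun y => avg (f y) := by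
  unfold avg
  exact (Finset.measurable_sum _ fun i _ => h i).div_const _

theorem lr_frac_exists (p : κ → ι → Prop) : frac (fun i => ∃ k, p k i) ≤ ∑ k, frac (p k) := by
  simp only [lr_frac_eq]
  rw [← p_avg_sum]
  refine p_avg_mono fun i => ?_
  by_cases h : ∃ k, p k i
  · obtain ⟨k, hk⟩ := h
    refine (lr_ind_le_one _).trans ((lr_ind_pos hk).symm.le.trans ?_)
    exact Finset.single_le_sum (f := fun k => ind (p k i)) (fun _ _ => lr_ind_nonneg _)
      (Finset.mem_univ k)
  · rw [lr_ind_neg h]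
    exact Finset.sum_nonneg fun _ _ => lr_ind_nonneg _

theorem lr_frac_exists_le (p : κ → ι → Prop) {b : ℝ} (h : ∀ k, frac (p k) ≤ b) :
    frac (fun i => ∃ k, p k i) ≤ Fintype.card κ * b := by
  refine (lr_frac_exists p).trans ((Finset.sum_le_sum fun k _ => h k).trans ?_)
  simp

/-- comparison of two averages that agree off a small set -/
theorem lr_avg_close {f g : ι → ℝ} {p : ι → Prop} {a : ℝ} (ha : 0 ≤ a) (hf : ∀ i, |f i| ≤ 1)
    (hg : ∀ i, |g i| ≤ 1) (h : ∀ i, ¬ p i → |f i - g i| ≤ a) :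
    |avg f - avg g| ≤ a + 2 * frac p := by
  rw [← b0_avg_sub]
  refine (b0_abs_avg _).trans ((p_avg_mono (g := fun i => a + 2 * ind (p i)) fun i => ?_).trans ?_)
  · by_cases hp : p i
    · rw [lr_ind_pos hp]
      have := abs_le.1 (hf i); have := abs_le.1 (hg i)
      rw [abs_le]; constructor <;> linarith
    · rw [lr_ind_neg hp]; simpa using h i hp
  · rw [p_avg_add, p_avg_mul]
    have := p_avg_le (f := fun _ : ι => a) ha fun _ => le_rfl
    rw [lr_frac_eq]; linarith

/-- restriction of an average to the range of an injection -/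
theorem lr_avg_inj [Nonempty ι] {e : ι → κ} (he : Function.Injective e) {f : κ → ℝ}
    (hf : ∀ k, |f k| ≤ 1) :
    |avg f - avg fun i => f (e i)| ≤ 2 * (1 - (Fintype.card ι : ℝ) / Fintype.card κ) := by
  classical
  have hle : Fintype.card ι ≤ Fintype.card κ := Fintype.card_le_of_injective e he
  have hι : (0 : ℝ) < Fintype.card ι := by exact_mod_cast Fintype.card_pos
  have hle' : (Fintype.card ι : ℝ) ≤ Fintype.card κ := by exact_mod_cast hle
  have hκ : (0 : ℝ) < Fintype.card κ := hι.trans_le hle'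
  have h1 : ∑ k, f k = ∑ i, f (e i) + ∑ k ∈ (Finset.univ.image e)ᶜ, f k := by
    rw [← Finset.sum_add_sum_compl (Finset.univ.image e), Finset.sum_image fun _ _ _ _ h => he h]
  have h2 : |∑ k ∈ (Finset.univ.image e)ᶜ, f k| ≤ (Fintype.card κ : ℝ) - Fintype.card ι := by
    refine (Finset.abs_sum_le_sum_abs _ _).trans ((Finset.sum_le_sum fun k _ => hf k).trans ?_)
    rw [Finset.sum_const, Finset.card_compl, Finset.card_image_of_injective _ he, Finset.card_univ,
      nsmul_eq_mul, mul_one, Nat.cast_sub hle]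
  have h3 : |∑ i, f (e i)| ≤ Fintype.card ι := by
    refine (Finset.abs_sum_le_sum_abs _ _).trans ((Finset.sum_le_sum fun k _ => hf _).trans ?_)
    simp
  unfold avg
  rw [h1]
  set S := ∑ i, f (e i)
  set S' := ∑ k ∈ (Finset.univ.image e)ᶜ, f k
  set a : ℝ := (Fintype.card ι : ℝ)
  set b : ℝ := (Fintype.card κ : ℝ)
  have e1 : (S + S') / b - S / a = (S' * a - S * (b - a)) / (a * b) := by field_simp; ring
  have e2 : 2 * (1 - a / b) = (2 * (b - a) * a) / (a * b) := by field_simp
  rw [e1, e2, abs_div, abs_of_pos (mul_pos hι hκ)]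
  gcongr
  have := abs_le.1 h2; have := abs_le.1 h3
  have hba : 0 ≤ b - a := by linarith
  rw [abs_le]
  constructor <;> nlinarith

variable [DecidableEq ι]

/-- resampling one coordinate -/
theorem lr_avg_update [Nonempty X] (f : (ι → X) → ℝ) (k : ι) :
    avg f = avg fun α => avg fun x => f (Function.update α k x) := by
  let e : (ι → X) × X ≃ (ι → X) × X := Function.Involutive.toPerm
    (fun p => (Function.update p.1 k p.2, p.1 k)) fun p => by simp
  rw [← b0_avg_fst (κ := X) f, ← p_avg_equiv e, p_avg_prod]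
  rfl

theorem lr_frac_update [Nonempty X] {p : (ι → X) → Prop} (k : ι) {b : ℝ} (hb : 0 ≤ b)
    (h : ∀ α, frac (fun x => p (Function.update α k x)) ≤ b) : frac p ≤ b := by
  rw [lr_frac_eq, lr_avg_update _ k]
  exact p_avg_le hb h

theorem lr_frac_eval [Nonempty X] (p : X → Prop) (k : ι) :
    frac (fun α : ι → X => p (α k)) ≤ frac p :=
  lr_frac_update k (p_frac_nonneg _) fun α => by simp

/-- the coordinates `i + j.succ` of a uniform function are uniform -/
theorem lr_avg_shift [Nonempty X] {q : ℕ} (i : Fin (q + 1)) (τ : X ≃ X) (f : (Fin q → X) → ℝ) :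
    (avg fun α : Fin (q + 1) → X => f fun j => τ (α (i + j.succ))) = avg f := by
  let e : (Fin (q + 1) → X) ≃ (Fin q → X) × X :=
    ((Equiv.arrowCongr (Equiv.addLeft i).symm τ).trans (Fin.consEquiv fun _ => X).symm).trans
      (Equiv.prodComm _ _)
  rw [← b0_avg_fst (κ := X) f, ← p_avg_equiv e]
  rfl

end avg

theorem lr_integral_le {Y : Type} [MeasurableSpace Y] {μ : Measure Y} {f g : Y → ℝ}
    (hg : Integrable g μ) (h0 : 0 ≤ ∫ y, g y ∂μ) (h : ∀ y, f y ≤ g y) :
    ∫ y, f y ∂μ ≤ ∫ y, g y ∂μ := by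
  by_cases hf : Integrable f μ
  · exact integral_mono hf hg h
  · rwa [integral_undef hf]

theorem lr_integrable {Y : Type} [MeasurableSpace Y] {μ : Measure Y} [IsFiniteMeasure μ]
    {f : Y → ℝ} (hf : Measurable f) {C : ℝ} (h : ∀ y, |f y| ≤ C) : Integrable f μ :=
  Integrable.of_bound hf.aestronglyMeasurable C (Eventually.of_forall h)

theorem lr_integral_const_le {Y : Type} [MeasurableSpace Y] (μ : Measure Y)
    [IsZeroOrProbabilityMeasure μ] {C : ℝ} (h : 0 ≤ C) : ∫ _, C ∂μ ≤ C := by
  rw [integral_const, smul_eq_mul]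
  exact mul_le_of_le_one_left h measureReal_le_one

theorem lr_sqrt_gam (a b : ℂ) : √(gam a b) = t0_dl a b := by
  unfold gam t0_dl
  rw [Real.sqrt_div (by positivity), Real.sqrt_sq (norm_nonneg _)]

theorem lr_gam_psi {q : ℕ} (s : ℝ) {z : ℂ} (hz : 0 < z.im) (a : II) {Y Y' : Fin q → ℂ} {ε : ℝ}
    (hε : 0 ≤ ε) (hY : ∀ j, 0 < (Y j).im ∧ ‖Y j‖ ≤ z.im⁻¹) (hY' : ∀ j, 0 < (Y' j).im ∧ ‖Y' j‖ ≤ z.im⁻¹)
    (h : ∀ j, gam (Y j) (Y' j) ≤ ε ^ 2) : √(gam (Psi s z a Y) (Psi s z a Y')) ≤ ε := by
  have h1 := t0_step hz (by positivity) hε s le_rfl le_rfl a hY hY' fun j => by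
    rw [← lr_sqrt_gam]; exact Real.sqrt_le_iff.2 ⟨hε, h j⟩
  have h2 := (t0_theta_lt (q := q) hz (by positivity : 0 ≤ z.im⁻¹)).2
  rw [lr_sqrt_gam]
  simp only [sub_self, norm_zero, zero_div, zero_add] at h1
  exact h1.trans (mul_le_of_le_one_left hε h2.le)

theorem lr_agree_cons {q R : ℕ} (a : II) {β β' : Fin q → Env q} (h : ∀ j, Agree R (β j) (β' j)) :
    Agree R (cons a β) (cons a β') := by
  intro l hl
  cases l with
  | nil => rfl
  | cons j l => exact h j l (by simp at hl; omega)

theorem lr_meas_psi {q : ℕ} (s : ℝ) (z : ℂ) (Y : Fin q → ℂ) (β : Fin q → Env q) :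
    Measurable fun a : II => (Psi s z a Y, cons a β) := by
  refine Measurable.prodMk ?_ ?_
  · unfold Psi; fun_prop
  · exact (b0_cont_cons.comp (f := fun a : II => (a, β)) (by fun_prop)).measurable

end Crest.Agent.R166
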